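import Vale.Agent.P181.H89.MainS
import Vale.Agent.P181.H626.ConstS
import Vale.Agent.P181.H569.Conv
import Vale.Agent.P181.H179.P8

/-!
P181, power map theorem for `b = q a` and first row at most `(s + 1) b - C log a`, every `s`.
-/

set_option autoImplicit false

open scoped TensorProduct

namespace Vale.Agent.P181.H89

open Vale.Agent.P181 Vale.Agent.P181.H280 Vale.Agent.P181.H179 Vale.Agent.P181.T3 Finset

/-- Large `a` is a combination of `k` and `k + 1` with nearly equal coefficients. -/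
lemma sizesS (k q a : ℕ) (ha : (2 * k + 1) * (2 * k + 1) ≤ a) :
    ∃ g g' w : ℕ, a = k * g + (k + 1) * g' ∧ 1 ≤ w ∧ w ≤ g ∧ w ≤ g' ∧
      q * a ≤ q * (2 * k + 1) * w + 2 * k * (q * (2 * k + 1) + q) := by
  obtain ⟨t, ht⟩ : ∃ t, t = a / (2 * k + 1) := ⟨_, rfl⟩
  obtain ⟨r, hr⟩ : ∃ r, r = a % (2 * k + 1) := ⟨_, rfl⟩
  have h1 : (2 * k + 1) * t + r = a := by
    rw [ht, hr]
    exact Nat.div_add_mod a (2 * k + 1)
  have h2 : r < 2 * k + 1 := by
    rw [hr]
    exact Nat.mod_lt _ (by omega)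
  have h3 : 2 * k + 1 ≤ t := by
    rw [ht]
    exact (Nat.le_div_iff_mul_le (by omega)).2 ha
  refine ⟨t - r, t + r, t - 2 * k, ?_, by omega, by omega, by omega, ?_⟩
  · obtain ⟨u, hu⟩ : ∃ u, t = r + u := ⟨t - r, by omega⟩
    rw [← h1, hu, Nat.add_sub_cancel_left]
    ring
  · obtain ⟨u, hu⟩ : ∃ u, t = 2 * k + u := ⟨t - 2 * k, by omega⟩
    have h4 : t - 2 * k = u := by omega
    rw [h4]
    have h5 : a ≤ (2 * k + 1) * (2 * k + u) + 2 * k := by
      rw [← h1, hu]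
      omega
    calc q * a ≤ q * ((2 * k + 1) * (2 * k + u) + 2 * k) := Nat.mul_le_mul_left q h5
      _ = _ := by ring

/-- Type of a label. -/
def tyS (k q : ℕ) (κ : Fin (q * (2 * k + 1))) : Bool := decide ((κ : ℕ) < q * k)

/-- Labels of a type in a form. -/
def cS (k : ℕ) (z : Bool) : ℕ := if z then k else k + 1

/-- Size of the pieces of a type. -/
def gS (g g' : ℕ) (z : Bool) : ℕ := if z then g else g'

lemma card_tyS (k q : ℕ) (z : Bool) :
    (univ.filter (fun κ : Fin (q * (2 * k + 1)) => tyS k q κ = z)).card = q * cS k z := by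
  have hle : q * k ≤ q * (2 * k + 1) := Nat.mul_le_mul_left q (by omega)
  have h1 : (univ.filter (fun κ : Fin (q * (2 * k + 1)) => tyS k q κ = true)).card = q * k := by
    have h1 : (univ.filter (fun κ : Fin (q * (2 * k + 1)) => tyS k q κ = true)).card =
        (univ : Finset (Fin (q * k))).card := by
      symm
      apply Finset.card_bij (fun (j : Fin (q * k)) _ => (⟨(j : ℕ), j.2.trans_le hle⟩ :
        Fin (q * (2 * k + 1))))
      · intro j _
        simp only [mem_filter, mem_univ, true_and, tyS, decide_eq_true_eq]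
        exact j.2
      · intro i _ j _ hij
        exact Fin.ext (by simpa using hij)
      · intro κ hκ
        simp only [mem_filter, mem_univ, true_and, tyS, decide_eq_true_eq] at hκ
        exact ⟨⟨κ, hκ⟩, Finset.mem_univ _, rfl⟩
    rw [h1, Finset.card_univ, Fintype.card_fin]
  cases z
  · have h2 := Finset.card_filter_add_card_filter_not
      (s := (univ : Finset (Fin (q * (2 * k + 1)))))
      (fun κ : Fin (q * (2 * k + 1)) => tyS k q κ = true)
    rw [h1, Finset.card_univ, Fintype.card_fin] at h2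
    have h3 : (univ.filter (fun κ : Fin (q * (2 * k + 1)) => ¬ tyS k q κ = true)) =
        univ.filter (fun κ => tyS k q κ = false) := by
      apply Finset.filter_congr
      intro κ _
      rw [Bool.not_eq_true]
    rw [h3] at h2
    have h4 : q * (2 * k + 1) = q * k + q * (k + 1) := by ring
    rw [cS, if_neg Bool.false_ne_true]
    omega
  · rw [h1, cS, if_pos rfl]

/-- Power map theorem for at most `s` rows and large forms (two types of letters). -/
def PMAll (s q : ℕ) : Prop :=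
  ∀ (s' : ℕ) (c : Bool → ℕ), 1 ≤ s' → s' ≤ s → (∀ z, s * (s - 1) * (q + 1) ≤ c z) →
    GK.PM2 s' q c

/-- **The power map, every number of rows.** For `b = q a` the power map is injective on the highest
weight vectors with first row at most `(s + 1) b - C log a`, or with `a - s + 1` rows of length at
least `C log a`. -/
theorem powMap_of (s q : ℕ) (hs : 2 ≤ s) (hq : 1 ≤ q) (hPM : PMAll s q) :
    ∃ C : ℕ, ∀ a M n : ℕ, C ≤ a → (C : ℝ) * Real.log a ≤ M → ∀ lam : Fin (n + 1) → ℕ,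
      ((∀ m, lam m + M ≤ (s + 1) * (q * a)) ∨
        (a ≤ n + s ∧ ∀ m : Fin (n + 1), (m : ℕ) + s ≤ a → M ≤ lam m)) →
      ∀ x : Sym[ℂ]^a (Sym[ℂ]^(q * a) (Fin (n + 1) → ℂ)),
        x ∈ hwSpace lam (plethAct a (q * a) (n + 1)) →
        powMap a q (Fin (n + 1) → ℂ) x = 0 → x = 0 := by
  classical
  obtain ⟨k, hk⟩ : ∃ k, k = s * s * (q + 1) := ⟨_, rfl⟩
  have hkq : s * (s - 1) * (q + 1) ≤ k := by
    rw [hk]
    exact Nat.mul_le_mul_right _ (Nat.mul_le_mul_left s (by omega))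
  have hk1 : 1 ≤ k := by
    rw [hk]
    exact Nat.mul_pos (Nat.mul_pos (by omega) (by omega)) (by omega)
  have hQ1 : 1 ≤ q * (2 * k + 1) := Nat.mul_pos hq (by omega)
  obtain ⟨C, hC⟩ := constS s (q * (2 * k + 1)) (2 * k * (q * (2 * k + 1) + q)) (by omega) hQ1
  refine ⟨max C (max ((2 * k + 1) * (2 * k + 1)) (s + 3)), ?_⟩
  intro a M n ha hM lam hlam x hx hx0
  have ha1 : C ≤ a := le_trans (le_max_left _ _) ha
  have ha2 : (2 * k + 1) * (2 * k + 1) ≤ a :=
    le_trans (le_trans (le_max_left _ _) (le_max_right _ _)) ha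
  have ha3 : s + 3 ≤ a := le_trans (le_trans (le_max_right _ _) (le_max_right _ _)) ha
  have haR : (1 : ℝ) ≤ a := by
    have : 1 ≤ a := by omega
    exact_mod_cast this
  have hlog : 0 ≤ Real.log a := Real.log_nonneg haR
  have hCM : (C : ℝ) * Real.log a ≤ M := by
    refine le_trans (mul_le_mul_of_nonneg_right ?_ hlog) hM
    exact_mod_cast le_max_left C _
  obtain ⟨A, L, θ, _, _, _, hA, hgr, hX, hnum⟩ := hC a (by omega) M hCM
  obtain ⟨g, g', w, hag, hw, hg, hg', he⟩ := sizesS k q a ha2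
  have hIcc : Finset.Icc 1 s = insert 1 (Finset.Icc 2 s) := by
    ext z
    rw [Finset.mem_insert, Finset.mem_Icc, Finset.mem_Icc]
    omega
  rw [hIcc, Finset.sum_insert (by rw [Finset.mem_Icc]; omega), if_pos rfl, if_pos rfl, pow_zero,
    one_mul] at hnum
  rw [Finset.sum_congr rfl (g := fun r => (a : ℝ) ^ 2 * ((q * (2 * k + 1) : ℕ) : ℝ) ^ 2 *
        (2 ^ (θ r) * (1 - 1 / (2 * ((q * (2 * k + 1) : ℕ) : ℝ) ^ 2)) ^
          (L * θ r - 2 * (2 * k * (q * (2 * k + 1) + q))))) (fun r hr => by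
      rw [Finset.mem_Icc] at hr
      rw [if_neg (by omega), if_neg (by omega)])] at hnum
  refine injS (s := s) (w := w) (e := 2 * k * (q * (2 * k + 1) + q)) (A := A) (L := L) (X := M)
    (tyS k q) (cS k) (gS g g') θ hs (by omega) hQ1 ⟨true, by rw [cS, if_pos rfl]; exact hk1⟩
    (card_tyS k q) (by rw [cS, cS, gS, gS, if_pos rfl, if_pos rfl, if_neg Bool.false_ne_true,
      if_neg Bool.false_ne_true]; exact hag) hw (fun κ => by
      rw [gS]
      split_ifs
      · exact hg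
      · exact hg') he hA (fun r hr _ => ⟨(hgr r hr).1, (hgr r hr).2.2⟩) hnum
    (fun s' h1 h2 => hPM s' (cS k) h1 h2 (fun z => by
      rw [cS]
      split_ifs
      · exact hkq
      · omega)) hX lam ?_ x hx hx0
  rcases hlam with h | ⟨han, h⟩
  · left
    have h0 := h 0
    refine ⟨(s + 1) * (q * a) - M, fun m => ?_, ?_⟩
    · have := h m
      omega
    · omega
  · right
    exact ⟨by omega, h⟩

/-- Multiplicities. -/
theorem mult_of (s q : ℕ) (hs : 2 ≤ s) (hq : 1 ≤ q) (hPM : PMAll s q) :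
    ∃ C : ℕ, ∀ a M n : ℕ, C ≤ a → (C : ℝ) * Real.log a ≤ M → ∀ lam : Fin (n + 1) → ℕ,
      ((∀ m, lam m + M ≤ (s + 1) * (q * a)) ∨
        (a ≤ n + s ∧ ∀ m : Fin (n + 1), (m : ℕ) + s ≤ a → M ≤ lam m)) →
      plethMult a (q * a) (n + 1) lam ≤ plethMult (q * a) a (n + 1) lam := by
  obtain ⟨C, hC⟩ := powMap_of s q hs hq hPM
  refine ⟨C, fun a M n ha hM lam hlam => ?_⟩
  exact finrank_le_of_inj (powMap a q (Fin (n + 1) → ℂ)) _ _
    (fun x hx => powMap_hwSpace lam x hx) (fun x hx h0 => hC a M n ha hM lam hlam x hx h0)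

/-- Propagation in `b`. -/
theorem prop_of (s q : ℕ) (hs : 2 ≤ s) (hq : 1 ≤ q) (hPM : PMAll s q) :
    ∃ C : ℕ, ∀ a M n k : ℕ, C ≤ a → (C : ℝ) * Real.log a ≤ M → ∀ lam : Fin (n + 1) → ℕ,
      (∀ i, i ≠ 0 → lam i ≤ q * a) →
      ((lam 0 + M ≤ (s + 1) * (q * a) + a * k ∧ ∀ i, i ≠ 0 → lam i + M ≤ (s + 1) * (q * a)) ∨
        (a ≤ n + s ∧ a * k + M ≤ lam 0 ∧
          ∀ i : Fin (n + 1), i ≠ 0 → (i : ℕ) + s ≤ a → M ≤ lam i)) →
      plethMult a (q * a + k) (n + 1) lam ≤ plethMult (q * a + k) a (n + 1) lam := by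
  obtain ⟨C, hC⟩ := mult_of s q hs hq hPM
  refine ⟨C, fun a M n k ha hM lam hlam h0 => ?_⟩
  apply reduction a (q * a) k lam hlam
  intro c hc
  apply hC a M n ha hM
  rcases h0 with ⟨h0, h1⟩ | ⟨han, h0, h1⟩
  · left
    intro m
    by_cases hm : m = 0
    · subst hm
      rw [Function.update_self]
      omega
    · rw [Function.update_of_ne hm]
      exact h1 m hm
  · right
    refine ⟨han, fun m hma => ?_⟩
    by_cases hm : m = 0
    · subst hm
      rw [Function.update_self]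
      omega
    · rw [Function.update_of_ne hm]
      exact h1 m hm hma

/-- The power map theorem for large forms (helpers 304, 569). -/
theorem pmAll (s q : ℕ) (hq : 1 ≤ q) : PMAll s q := by
  intro s' c h1 h2 hc
  refine H569.pm2 hq c (fun z => Or.inr (le_trans ?_ (hc z)))
  exact Nat.mul_le_mul_right _ (Nat.mul_le_mul h2 (by omega))

/-- **Power map, every number of rows.** -/
theorem powMap_gen (s q : ℕ) (hs : 2 ≤ s) (hq : 1 ≤ q) :
    ∃ C : ℕ, ∀ a M n : ℕ, C ≤ a → (C : ℝ) * Real.log a ≤ M → ∀ lam : Fin (n + 1) → ℕ,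
      ((∀ m, lam m + M ≤ (s + 1) * (q * a)) ∨
        (a ≤ n + s ∧ ∀ m : Fin (n + 1), (m : ℕ) + s ≤ a → M ≤ lam m)) →
      ∀ x : Sym[ℂ]^a (Sym[ℂ]^(q * a) (Fin (n + 1) → ℂ)),
        x ∈ hwSpace lam (plethAct a (q * a) (n + 1)) →
        powMap a q (Fin (n + 1) → ℂ) x = 0 → x = 0 :=
  powMap_of s q hs hq (pmAll s q hq)

theorem mult_gen (s q : ℕ) (hs : 2 ≤ s) (hq : 1 ≤ q) :
    ∃ C : ℕ, ∀ a M n : ℕ, C ≤ a → (C : ℝ) * Real.log a ≤ M → ∀ lam : Fin (n + 1) → ℕ,
      ((∀ m, lam m + M ≤ (s + 1) * (q * a)) ∨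
        (a ≤ n + s ∧ ∀ m : Fin (n + 1), (m : ℕ) + s ≤ a → M ≤ lam m)) →
      plethMult a (q * a) (n + 1) lam ≤ plethMult (q * a) a (n + 1) lam :=
  mult_of s q hs hq (pmAll s q hq)

theorem prop_gen (s q : ℕ) (hs : 2 ≤ s) (hq : 1 ≤ q) :
    ∃ C : ℕ, ∀ a M n k : ℕ, C ≤ a → (C : ℝ) * Real.log a ≤ M → ∀ lam : Fin (n + 1) → ℕ,
      (∀ i, i ≠ 0 → lam i ≤ q * a) →
      ((lam 0 + M ≤ (s + 1) * (q * a) + a * k ∧ ∀ i, i ≠ 0 → lam i + M ≤ (s + 1) * (q * a)) ∨
        (a ≤ n + s ∧ a * k + M ≤ lam 0 ∧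
          ∀ i : Fin (n + 1), i ≠ 0 → (i : ℕ) + s ≤ a → M ≤ lam i)) →
      plethMult a (q * a + k) (n + 1) lam ≤ plethMult (q * a + k) a (n + 1) lam :=
  prop_of s q hs hq (pmAll s q hq)

end Vale.Agent.P181.H89
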