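import Vale.Agent.P181.T3.Fill

/-!
P181, power map theorem, general number `s` of rows in a part: fillings in which every `s + 1` rows
share many columns.
-/

set_option autoImplicit false

open scoped TensorProduct

namespace Vale.Agent.P181.H89

open Vale.Agent.P181 Vale.Agent.P181.H280 Vale.Agent.P181.H179 Vale.Agent.P181.T3 Finset
  MvPolynomial

/-- Ordered pairs of rows of `S`, counted with common columns, column by column. -/
lemma sg_eq {a N : ℕ} (C : Fin a → Finset (Fin N)) (S : Finset (Fin a)) :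
    ∑ p ∈ S.offDiag, (C p.1 ∩ C p.2).card =
      ∑ c : Fin N, ((S.filter (fun i => c ∈ C i)).card * (S.filter (fun i => c ∈ C i)).card -
        (S.filter (fun i => c ∈ C i)).card) := by
  classical
  have h1 : ∀ p : Fin a × Fin a, (C p.1 ∩ C p.2).card =
      ∑ c : Fin N, if c ∈ C p.1 ∧ c ∈ C p.2 then 1 else 0 := by
    intro p
    rw [← Finset.card_filter]
    congr 1
    ext c
    rw [Finset.mem_inter, Finset.mem_filter]
    exact ⟨fun h => ⟨Finset.mem_univ _, h⟩, fun h => h.2⟩
  rw [Finset.sum_congr rfl (fun p _ => h1 p), Finset.sum_comm]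
  apply Finset.sum_congr rfl
  intro c _
  rw [← Finset.card_filter, ← Finset.offDiag_card]
  congr 1
  ext p
  simp only [Finset.mem_filter, Finset.mem_offDiag]
  tauto

lemma card_sum {a N : ℕ} (C : Fin a → Finset (Fin N)) (S : Finset (Fin a)) :
    ∑ i ∈ S, (C i).card = ∑ c : Fin N, (S.filter (fun i => c ∈ C i)).card := by
  classical
  have h1 : ∀ i, (C i).card = ∑ c : Fin N, if c ∈ C i then 1 else 0 := by
    intro i
    rw [← Finset.card_filter]
    congr 1
    ext c
    rw [Finset.mem_filter]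
    exact ⟨fun h => ⟨Finset.mem_univ _, h⟩, fun h => h.2⟩
  rw [Finset.sum_congr rfl (fun i _ => h1 i), Finset.sum_comm]
  apply Finset.sum_congr rfl
  intro c _
  rw [← Finset.card_filter]

section

variable {a N : ℕ} {l : Fin N → ℕ} {e : Box l → Fin a}

lemma sg_of_sum {b X s : ℕ} (hC : ∀ i, (CC e i).card = b) (hN : N + X ≤ (s + 1) * b)
    (S : Finset (Fin a)) (hS : S.card = s + 1) :
    2 * X ≤ ∑ p ∈ S.offDiag, (CC e p.1 ∩ CC e p.2).card := by
  classical
  rw [sg_eq]
  have h1 := card_sum (CC e) S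
  rw [Finset.sum_congr rfl (fun i _ => hC i), Finset.sum_const, hS, smul_eq_mul] at h1
  have h2 : ∑ c : Fin N, 2 * (S.filter (fun i => c ∈ CC e i)).card ≤
      ∑ c : Fin N, (((S.filter (fun i => c ∈ CC e i)).card *
        (S.filter (fun i => c ∈ CC e i)).card - (S.filter (fun i => c ∈ CC e i)).card) + 2) := by
    apply Finset.sum_le_sum
    intro c _
    generalize (S.filter (fun i => c ∈ CC e i)).card = k
    rcases Nat.lt_or_ge k 3 with h | h
    · interval_cases k <;> norm_num
    · have h3 : 3 * k ≤ k * k := Nat.mul_le_mul_right k h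
      omega
  rw [← Finset.mul_sum, ← h1, Finset.sum_add_distrib, Finset.sum_const, Finset.card_univ,
    Fintype.card_fin, smul_eq_mul] at h2
  omega

lemma sg_of_tall {X s : ℕ} (hcol : ∀ t u v, u ≠ v → e ⟨t, u⟩ ≠ e ⟨t, v⟩) (hsa : s ≤ a)
    (hX : X ≤ (univ.filter (fun t => a - s < l t)).card)
    (S : Finset (Fin a)) (hS : S.card = s + 1) :
    2 * X ≤ ∑ p ∈ S.offDiag, (CC e p.1 ∩ CC e p.2).card := by
  classical
  rw [sg_eq]
  have h1 : ∑ t ∈ univ.filter (fun t => a - s < l t), 2 ≤
      ∑ c : Fin N, ((S.filter (fun i => c ∈ CC e i)).card *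
        (S.filter (fun i => c ∈ CC e i)).card - (S.filter (fun i => c ∈ CC e i)).card) := by
    rw [← Finset.sum_filter_add_sum_filter_not univ (fun t => a - s < l t)]
    refine le_trans ?_ (Nat.le_add_right _ _)
    apply Finset.sum_le_sum
    intro t ht
    rw [Finset.mem_filter] at ht
    have hinj : Function.Injective (fun z : Fin (l t) => e ⟨t, z⟩) := by
      intro u v huv
      by_contra h4
      exact hcol t u v h4 huv
    have h3 : (univ.filter (fun i : Fin a => t ∈ CC e i)).card = l t := by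
      have h4 : univ.filter (fun i : Fin a => t ∈ CC e i) =
          univ.image (fun z : Fin (l t) => e ⟨t, z⟩) := by
        ext i
        rw [Finset.mem_filter, mem_CC, Finset.mem_image]
        constructor
        · rintro ⟨_, ⟨t', z⟩, h5, h6⟩
          simp only at h5
          subst h5
          exact ⟨z, Finset.mem_univ _, h6⟩
        · rintro ⟨z, _, h6⟩
          exact ⟨Finset.mem_univ _, ⟨t, z⟩, rfl, h6⟩
      rw [h4, Finset.card_image_of_injective _ hinj, Finset.card_univ, Fintype.card_fin]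
    have h5 : S.card + (univ.filter (fun i : Fin a => t ∈ CC e i)).card ≤
        (S.filter (fun i => t ∈ CC e i)).card + a := by
      have h6 := Finset.card_union_add_card_inter S (univ.filter (fun i : Fin a => t ∈ CC e i))
      have h7 : S ∩ univ.filter (fun i : Fin a => t ∈ CC e i) =
          S.filter (fun i => t ∈ CC e i) := by
        ext i
        simp only [Finset.mem_inter, Finset.mem_filter, Finset.mem_univ, true_and]
      have h8 := Finset.card_le_univ (S ∪ univ.filter (fun i : Fin a => t ∈ CC e i))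
      rw [Fintype.card_fin] at h8
      rw [h7] at h6
      omega
    rw [h3, hS] at h5
    have h6 : 2 ≤ (S.filter (fun i => t ∈ CC e i)).card := by omega
    generalize (S.filter (fun i => t ∈ CC e i)).card = k at h6
    have h7 : 2 * k ≤ k * k := Nat.mul_le_mul_right k h6
    omega
  rw [Finset.sum_const, smul_eq_mul] at h1
  omega

end

variable {n : ℕ}

/-- A nonzero highest weight form does not vanish on some filling with minimal potential, in which
any `s + 1` rows share many columns pairwise. -/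
theorem exists_minS {a b X s : ℕ} (hs : 1 ≤ s) (ha : s + 1 ≤ a) (lam : Fin n → ℕ)
    (hlam : (∃ M, (∀ m, lam m ≤ M) ∧ M + X ≤ (s + 1) * b) ∨
      (a + 1 ≤ n + s ∧ ∀ m : Fin n, (m : ℕ) + s ≤ a → X ≤ lam m))
    (l : (Fin a → Fin b → (Fin n → ℂ)) →₀ ℂ) (hx : elOf l ∈ hwSpace lam (plethAct a b n))
    (hne : fullForm l ≠ 0) (pot : ∀ (N : ℕ) (l' : Fin N → ℕ), (Box l' → Fin a) → ℕ) :
    ∃ (N : ℕ) (l' : Fin N → ℕ) (e : Box l' → Fin a), VV (fullForm l) l' e ≠ 0 ∧
      (∀ e' : Box l' → Fin a, VV (fullForm l) l' e' ≠ 0 → pot N l' e ≤ pot N l' e') ∧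
      ∀ S : Finset (Fin a), S.card = s + 1 →
        2 * X ≤ ∑ p ∈ S.offDiag, (CC e p.1 ∩ CC e p.2).card := by
  classical
  obtain ⟨M0, hM0, hM1⟩ : ∃ M0, (∀ i, lam i ≤ M0) ∧ ((M0 + X ≤ (s + 1) * b) ∨
        (a + 1 ≤ n + s ∧ ∀ m : Fin n, (m : ℕ) + s ≤ a → X ≤ lam m)) := by
    rcases hlam with ⟨M, h1, h2⟩ | h
    · exact ⟨M, h1, Or.inl h2⟩
    · exact ⟨∑ i, lam i, fun i => Finset.single_le_sum (fun j _ => Nat.zero_le _)
        (Finset.mem_univ i), Or.inr h⟩
  obtain ⟨N', hN', l', e0, hV0, hcc⟩ := H54B.exists_VV_col M0 (wt lam) (fullForm l)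
    (fullForm_hw lam l hx) hne (fun m hm => by rw [wt, dif_neg (by omega)]) (fun m => by
      rw [wt]
      split_ifs
      · exact hM0 _
      · exact Nat.zero_le _)
  obtain ⟨e, he, hmin⟩ := Finset.exists_min_image
    (univ.filter (fun e : Box l' → Fin a => VV (fullForm l) l' e ≠ 0))
    (fun e => pot N' l' e)
    ⟨e0, Finset.mem_filter.2 ⟨Finset.mem_univ _, hV0⟩⟩
  have hV : VV (fullForm l) l' e ≠ 0 := (Finset.mem_filter.1 he).2
  have hcol : ∀ t u v, u ≠ v → e ⟨t, u⟩ ≠ e ⟨t, v⟩ := fun t u v huv h =>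
    hV (VV_anti _ e t huv h)
  have hrow := VV_card (fullForm_deg l) hV
  refine ⟨N', l', e, hV, fun e' he' => hmin e' (Finset.mem_filter.2 ⟨Finset.mem_univ _, he'⟩), ?_⟩
  intro S hS
  rcases hM1 with h1 | ⟨han, h1⟩
  · exact sg_of_sum (CC_card hcol hrow) (le_trans (Nat.add_le_add_right hN' X) h1) S hS
  · apply sg_of_tall hcol (by omega) _ S hS
    have h2 := hcc (a - s)
    rw [wt, dif_pos (by omega : a - s < n)] at h2
    rw [h2]
    exact h1 _ (by simp only; omega)

end Vale.Agent.P181.H89
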