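import Vale.Agent.P181.H89.FillS
import Vale.Agent.P181.H530.StructS
import Vale.Agent.P181.H649.Tensor2
import Vale.Agent.P181.H644.LabelS

/-!
P181, power map theorem, general number `s` of rows in a part: assembly.
-/

set_option autoImplicit false

open scoped TensorProduct

namespace Vale.Agent.P181.H89

open Vale.Agent.P181 Vale.Agent.P181.H280 Vale.Agent.P181.H179 Vale.Agent.P181.T3 Finset
  MvPolynomial

variable {n : ℕ}

lemma sum_szS {Q : ℕ} (ty : Fin Q → Bool) (gz : Bool → ℕ) {q : ℕ} {c : Bool → ℕ}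
    (hQ : ∀ z, (univ.filter (fun κ => ty κ = z)).card = q * c z) :
    ∑ κ, gz (ty κ) = q * (c true * gz true + c false * gz false) := by
  have h1 : ∑ κ : Fin Q, gz (ty κ) =
      ∑ z : Bool, ∑ κ ∈ univ.filter (fun κ => ty κ = z), gz (ty κ) :=
    (Finset.sum_fiberwise univ ty (fun κ => gz (ty κ))).symm
  have h2 : ∀ z : Bool, ∑ κ ∈ univ.filter (fun κ => ty κ = z), gz (ty κ) = q * c z * gz z := by
    intro z
    rw [Finset.sum_congr rfl (g := fun _ => gz z) (fun κ hκ => by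
      rw [(Finset.mem_filter.1 hκ).2]), Finset.sum_const, hQ, smul_eq_mul]
  rw [h1, Fintype.sum_bool, h2, h2]
  ring

section

variable {a q N Q : ℕ} {l' : Fin N → ℕ}

/-- The power map relation in terms of the pieces. -/
lemma rel_piecesS {F : MultilinearMap ℂ (fun _ : Fin a => MvPolynomial (Fin n) ℂ) ℂ}
    (hd : ∀ G ∈ linS n ^ a, F (fun _ => G ^ q) = 0) (pc : Box l' → Fin a × Fin Q)
    (ty : Fin Q → Bool) (c gz : Bool → ℕ)
    (hpcsize : ∀ i κ, (univ.filter (fun p => pc p = (i, κ))).card = gz (ty κ))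
    (hah : a = c true * gz true + c false * gz false) (ρ : Fin a × Fin Q → Fin a × Fin q)
    (hρ : ∀ r z, (univ.filter (fun p => ρ p = r ∧ ty p.2 = z)).card = c z) :
    ∑ σ : Equiv.Perm (Fin a × Fin q), VV F l' (fun p => (σ (ρ (pc p))).1) = 0 := by
  classical
  have hPM := PM F hd (fun p => (ρ (pc p)).1) (fun p => (ρ (pc p)).2) (by
      intro i k
      have h1 : (univ.filter (fun p : Box l' => (ρ (pc p)).1 = i ∧ (ρ (pc p)).2 = k)) =
          univ.filter (fun p => ρ (pc p) = (i, k)) := by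
        apply Finset.filter_congr
        intro p _
        exact ⟨fun h3 => Prod.ext h3.1 h3.2, fun h3 => by rw [h3]; exact ⟨rfl, rfl⟩⟩
      rw [h1]
      have h2 : (univ.filter (fun p => ρ (pc p) = (i, k))).card =
          ∑ P ∈ univ.filter (fun P => ρ P = (i, k)),
            (univ.filter (fun p => pc p = P)).card := by
        rw [Finset.card_eq_sum_card_fiberwise (f := pc)
          (t := univ.filter (fun P => ρ P = (i, k)))]
        · apply Finset.sum_congr rfl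
          intro P hP
          rw [Finset.mem_filter] at hP
          congr 1
          ext p
          rw [Finset.mem_filter, Finset.mem_filter, Finset.mem_filter]
          constructor
          · rintro ⟨_, h3⟩
            exact ⟨Finset.mem_univ _, h3⟩
          · rintro ⟨_, h3⟩
            exact ⟨⟨Finset.mem_univ _, by rw [h3]; exact hP.2⟩, h3⟩
        · intro p hp
          rw [Finset.mem_coe, Finset.mem_filter] at hp ⊢
          exact ⟨Finset.mem_univ _, hp.2⟩
      have h3 : ∑ P ∈ univ.filter (fun P => ρ P = (i, k)), gz (ty P.2) =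
          ∑ z : Bool, ∑ P ∈ (univ.filter (fun P => ρ P = (i, k))).filter
            (fun P => ty P.2 = z), gz (ty P.2) :=
        (Finset.sum_fiberwise _ (fun P : Fin a × Fin Q => ty P.2) _).symm
      have h4 : ∀ z : Bool, ∑ P ∈ (univ.filter (fun P => ρ P = (i, k))).filter
            (fun P => ty P.2 = z), gz (ty P.2) = c z * gz z := by
        intro z
        rw [Finset.sum_congr rfl (g := fun _ => gz z) (fun P hP => by
          rw [(Finset.mem_filter.1 hP).2]), Finset.sum_const, Finset.filter_filter, hρ,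
          smul_eq_mul]
      rw [h2, Finset.sum_congr rfl (g := fun P : Fin a × Fin Q => gz (ty P.2))
        (fun P _ => hpcsize P.1 P.2), h3, Fintype.sum_bool, h4, h4]
      exact hah.symm)
  rw [← hPM]
  apply Fintype.sum_equiv (Equiv.inv (Equiv.Perm (Fin a × Fin q)))
  intro σ
  rfl

/-- The regroupings which do not vanish mix inside the parts only. -/
lemma struct_piecesS {s A L : ℕ} {θ : ℕ → ℕ} (hQ : 1 ≤ Q) (hs : 2 ≤ s) (hA : 2 * A ≤ θ 2)
    (hgr : ∀ r, 2 ≤ r → r ≤ s → A ≤ L * θ r ∧ (r + 1) * r * (L * θ r) ≤ θ (r + 1))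
    {F : MultilinearMap ℂ (fun _ : Fin a => MvPolynomial (Fin n) ℂ) ℂ} {e : Box l' → Fin a}
    (hcol : ∀ t u v, u ≠ v → e ⟨t, u⟩ ≠ e ⟨t, v⟩)
    (hmin : ∀ e' : Box l' → Fin a, VV F l' e' ≠ 0 →
        SS.wt θ s (cc (fun p : Box l' => p.1) e) ≤ SS.wt θ s (cc (fun p : Box l' => p.1) e'))
    (hgam : ∀ S : Finset (Fin a), S.card = s + 1 →
      θ (s + 1) ≤ ∑ p ∈ S.offDiag, (CC e p.1 ∩ CC e p.2).card)
    (lab : Fin a → Fin N → Fin Q)
    (hlab2 : ∀ i j, i ≠ j → A ≤ (CC e i ∩ CC e j).card → ∀ k k', ∃ t ∈ CC e i ∩ CC e j,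
        lab i t = k ∧ lab j t = k')
    (hlab3 : ∀ r, 2 ≤ r → r ≤ s → ∀ i j, i ≠ j → L * θ r ≤ (CC e i ∩ CC e j).card → ∀ k k',
        θ r ≤ ((CC e i ∩ CC e j).filter (fun t => lab i t = k ∧ lab j t = k')).card)
    (y : Fin a × Fin Q → Fin a)
    (hy : ∀ m, (univ.filter (fun p => y p = m)).card = Q)
    (hVy : VV F l' (fun p => y (e p, lab (e p) p.1)) ≠ 0) :
    ∃ τ : Equiv.Perm (Fin a), ∀ p,
      SS.part (SS.ZZ θ s (cc (fun p : Box l' => p.1) e)) (τ (y p)) =
        SS.part (SS.ZZ θ s (cc (fun p : Box l' => p.1) e)) p.1 := by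
  classical
  have hcoly : ∀ x x' : Box l', x.1 = x'.1 → x ≠ x' →
      y (e x, lab (e x) x.1) ≠ y (e x', lab (e x') x'.1) := by
    rintro ⟨t, u⟩ ⟨t', v⟩ h1 h2 h3
    simp only at h1
    subst h1
    exact hVy (VV_anti _ _ t (fun h4 => h2 (by rw [h4])) h3)
  have hcole : ∀ x x' : Box l', x.1 = x'.1 → x ≠ x' → e x ≠ e x' := by
    rintro ⟨t, u⟩ ⟨t', v⟩ h1 h2 h3
    simp only at h1
    subst h1
    exact hcol t u v (fun h4 => h2 (by rw [h4])) h3
  obtain ⟨τ, hτ⟩ := structS a N Q s L A θ (Box l') (fun p => p.1)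
    (fun p => (e p, lab (e p) p.1)) hcole hQ hs hA hgr (by
      intro i j hij hc κ κ'
      have hc' : A ≤ (CC e i ∩ CC e j).card := by
        rw [← cc_eq]
        exact hc
      obtain ⟨t, ht, h1, h2⟩ := hlab2 i j hij hc' κ κ'
      rw [Finset.mem_inter, mem_CC, mem_CC] at ht
      obtain ⟨⟨x, rfl, hx2⟩, x', hx1', hx2'⟩ := ht
      refine ⟨x, x', hx1'.symm, ?_, ?_⟩
      · rw [hx2, h1]
      · rw [hx2', hx1', h2]) (by
      intro r hr hrs i j hij hc κ κ'
      have hc' : L * θ r ≤ (CC e i ∩ CC e j).card := by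
        rw [← cc_eq]
        exact hc
      refine (hlab3 r hr hrs i j hij hc' κ κ').trans (Finset.card_le_card ?_)
      intro t ht
      rw [Finset.mem_filter, Finset.mem_inter, mem_CC, mem_CC] at ht
      obtain ⟨⟨⟨x, rfl, hx2⟩, x', hx1', hx2'⟩, h1, h2⟩ := ht
      rw [Finset.mem_filter]
      refine ⟨Finset.mem_univ _, ⟨x, rfl, ?_⟩, x', hx1', ?_⟩
      · rw [hx2, h1]
      · rw [hx2', hx1', h2]) (by
      intro S hS
      rw [SS.sg, Finset.sum_congr rfl (g := fun p : Fin a × Fin a => (CC e p.1 ∩ CC e p.2).card)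
        (fun p _ => cc_eq e p.1 p.2)]
      exact hgam S hS) y hy hcoly
      (fun k hk => SS.lex_min (hmin _ hVy) k hk)
  exact ⟨τ, fun p => hτ p.1 p.2⟩

end

/-- The power map is injective on the highest weight vectors whose weight forces any `s + 1` rows
to share many columns, given the power map theorem for at most `s` rows and large forms. -/
theorem injS {a q Q s w e A L X : ℕ} (ty : Fin Q → Bool) (c gz : Bool → ℕ) (θ : ℕ → ℕ)
    (hs : 2 ≤ s) (ha : s + 1 ≤ a) (hQ1 : 1 ≤ Q) (hc : ∃ z, 1 ≤ c z)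
    (hQ : ∀ z, (univ.filter (fun κ => ty κ = z)).card = q * c z)
    (hah : a = c true * gz true + c false * gz false)
    (hw : 1 ≤ w) (hg : ∀ κ, w ≤ gz (ty κ)) (he : q * a ≤ Q * w + e)
    (hA : 2 * A ≤ θ 2)
    (hgr : ∀ r, 2 ≤ r → r ≤ s → A ≤ L * θ r ∧ (r + 1) * r * (L * θ r) ≤ θ (r + 1))
    (hnum : (a : ℝ) ^ 2 * (Q : ℝ) ^ 2 * (1 - 1 / (2 * (Q : ℝ) ^ 2)) ^ (A - 2 * e) +
      ∑ r ∈ Finset.Icc 2 s, (a : ℝ) ^ 2 * (Q : ℝ) ^ 2 *
        (2 ^ (θ r) * (1 - 1 / (2 * (Q : ℝ) ^ 2)) ^ (L * θ r - 2 * e)) < 1)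
    (hPM : ∀ s', 1 ≤ s' → s' ≤ s → GK.PM2 s' q c) (hX : θ (s + 1) ≤ 2 * X)
    (lam : Fin n → ℕ)
    (hlam : (∃ M, (∀ m, lam m ≤ M) ∧ M + X ≤ (s + 1) * (q * a)) ∨
      (a + 1 ≤ n + s ∧ ∀ m : Fin n, (m : ℕ) + s ≤ a → X ≤ lam m))
    (x : Sym[ℂ]^a (Sym[ℂ]^(q * a) (Fin n → ℂ))) (hx : x ∈ hwSpace lam (plethAct a (q * a) n))
    (h0 : powMap a q (Fin n → ℂ) x = 0) : x = 0 := by
  classical
  obtain ⟨l, rfl⟩ := exists_elOf x
  apply elOf_zero_of_fullForm
  by_contra hne
  obtain ⟨N, l', r, hV, hmin, hgam⟩ := exists_minS (by omega) ha lam hlam l hx hne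
    (fun N l' e => SS.wt θ s (cc (fun p : Box l' => p.1) e))
  have hcol : ∀ t u v, u ≠ v → r ⟨t, u⟩ ≠ r ⟨t, v⟩ := fun t u v huv h =>
    hV (VV_anti _ r t huv h)
  have hrow := VV_card (fullForm_deg l) hV
  have hC : ∀ i, (CC r i).card = ∑ κ, gz (ty κ) := by
    intro i
    rw [CC_card hcol hrow i, sum_szS ty gz hQ, ← hah]
  obtain ⟨lab, hlab1, hlab2, hlab3⟩ := TS.labelS (w := w) (e := e) (s := s) (A := A) (L := L)
    (θ := θ) (CC r) (fun κ => gz (ty κ)) hQ1 hw hg hC (by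
      rw [sum_szS ty gz hQ, ← hah]
      exact he) hnum
  have hpcsize : ∀ i κ, (univ.filter (fun p : Box l' => (r p, lab (r p) p.1) = (i, κ))).card =
      gz (ty κ) := by
    intro i κ
    rw [← hlab1 i κ, ← CC_bij hcol i (fun t => lab i t = κ)]
    congr 1
    apply Finset.filter_congr
    intro p _
    rw [Prod.mk.injEq]
    constructor
    · rintro ⟨h1, h2⟩
      exact ⟨h1, by rw [← h1]; exact h2⟩
    · rintro ⟨h1, h2⟩
      exact ⟨h1, by rw [h1]; exact h2⟩
  refine hV (GK.tensor2 (part := SS.part (SS.ZZ θ s (cc (fun p : Box l' => p.1) r))) ty c hc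
    (fun i => hPM _ ?_ ?_) (fun y => VV (fullForm l) l' (fun p => y (r p, lab (r p) p.1)))
    (fun τ y => VV_symm (fullForm_symm l) τ (fun p => y (r p, lab (r p) p.1)))
    (fun ρ hρ => rel_piecesS (fun G hG => fullForm_pow l h0 G hG)
      (fun p => (r p, lab (r p) p.1)) ty c gz hpcsize hah ρ hρ) hQ
    (fun y hy hVy => struct_piecesS hQ1 hs hA hgr hcol hmin
      (fun S hS => hX.trans (hgam S hS)) lab hlab2 hlab3 y (fun m => ?_) hVy))
  · exact Finset.card_pos.2 ⟨i, Finset.mem_filter.2 ⟨Finset.mem_univ _, rfl⟩⟩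
  · exact SS.card_part (by omega) _
  · have h1 : (univ.filter (fun p : Fin a × Fin Q => y p = m)).card =
        ∑ z : Bool, ((univ.filter (fun p : Fin a × Fin Q => y p = m)).filter
          (fun p => ty p.2 = z)).card :=
      Finset.card_eq_sum_card_fiberwise (fun p _ => Finset.mem_coe.2 (Finset.mem_univ _))
    have h2 : (Finset.univ : Finset (Fin Q)).card =
        ∑ z : Bool, ((Finset.univ : Finset (Fin Q)).filter (fun κ => ty κ = z)).card :=
      Finset.card_eq_sum_card_fiberwise (fun p _ => Finset.mem_coe.2 (Finset.mem_univ _))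
    rw [Finset.card_univ, Fintype.card_fin, Fintype.sum_bool, hQ, hQ] at h2
    rw [h1, Fintype.sum_bool, Finset.filter_filter, Finset.filter_filter, hy, hy, h2]

end Vale.Agent.P181.H89
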